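import Vale.Agent.Lib.P037.All2

namespace Vale.Agent.Results.P037.AllTwoByTwo

open Vale.Agent.Lib.P037

/-- The polynomial ordered removal lemma holds for every binary `2 × 2` pattern. -/
theorem result : ∀ H : Fin 2 → Fin 2 → Bool, PolyRemoval H :=
  polyRemoval_all2

end Vale.Agent.Results.P037.AllTwoByTwo
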