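import Vale.Agent.Lib.P037.AltMain

/-!
P037 (polynomial ordered binary matrix removal).
The conjecture holds for every `k × k` pattern with two complementary column blocks:
`H(i,j) = r i XOR [p ≤ j]`, where `r` is an arbitrary 0/1 vector and `0 < p < k`
(every row is `0^p 1^(k-p)` or `1^p 0^(k-p)`, with arbitrarily many alternations),
and for the transposed patterns.
-/

namespace Vale.Agent.Results.P037.AlternatingPatterns

open Vale.Agent.Lib.P037

theorem result :
    ∀ (k : ℕ) (r : Fin k → Bool) (p : ℕ), 0 < p → p < k →
      PolyRemoval (fun i j : Fin k => xor (r i) (decide (p ≤ j.val))) ∧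
      PolyRemoval (fun i j : Fin k => xor (r j) (decide (p ≤ i.val))) := by
  intro k r p hp0 hpk
  have h := polyRemoval_twoBlocks k r p hp0 hpk
  exact ⟨h, polyRemoval_tr _ h⟩

end Vale.Agent.Results.P037.AlternatingPatterns
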