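import Vale.Agent.Lib.P037_helper12.Blow

/-!
P037 (polynomial ordered binary matrix removal).
(1) Blow-up principle: if the conjecture holds for a `k × k` pattern `H`, it holds for every
`k' × k'` pattern obtained from `H` by repeating rows and columns.
(2) The conjecture holds for every `k × k` pattern with a `2 × 2` block structure, for all `k`.
-/

namespace Vale.Agent.Results.P037.BlockPatterns

open Vale.Agent.Lib.P037

theorem result :
    (∀ (k k' : ℕ) (H : Fin k → Fin k → Bool) (f g : Fin k' → Fin k),
      Monotone f → Function.Surjective f → Monotone g → Function.Surjective g →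
      PolyRemoval H → PolyRemoval (fun i j => H (f i) (g j))) ∧
    (∀ (k : ℕ) (H0 : Fin 2 → Fin 2 → Bool) (f g : Fin k → Fin 2),
      Monotone f → Function.Surjective f → Monotone g → Function.Surjective g →
      PolyRemoval (fun i j => H0 (f i) (g j))) := by
  constructor
  · intro k k' H f g hf hfs hg hgs h
    rw [← polyRemovalR_iff] at h ⊢
    exact polyRemovalR_blow H h k' k' f g hf hfs hg hgs
  · intro k H0 f g hf hfs hg hgs
    exact polyRemoval_block2 k _ H0 f g hf hfs hg hgs (fun _ _ => rfl)

end Vale.Agent.Results.P037.BlockPatterns
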