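import Vale.Agent.Lib.P037.Identity
import Vale.Agent.Lib.P037.Sym

namespace Vale.Agent.Results.P037.IdentityPattern

open Vale.Agent.Lib.P037

/-- The polynomial ordered removal lemma holds for the two `2 × 2` permutation patterns. -/
theorem result :
    PolyRemoval (fun i j : Fin 2 => decide (i = j)) ∧
    PolyRemoval (fun i j : Fin 2 => decide (i ≠ j)) := by
  refine ⟨polyRemoval_I2, ?_⟩
  have h := polyRemoval_compl I2 polyRemoval_I2
  have e : bcompl I2 = (fun i j : Fin 2 => decide (i ≠ j)) := by
    funext i j
    simp [bcompl, I2]
  rw [e] at h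
  exact h

end Vale.Agent.Results.P037.IdentityPattern
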