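import Vale.Agent.Lib.P037.LParams

namespace Vale.Agent.Results.P037.LPattern

open Vale.Agent.Lib.P037

/-- The polynomial ordered removal lemma holds for the `2 × 2` pattern with rows `1 1` and `1 0`. -/
theorem result :
    PolyRemoval (fun i j : Fin 2 => !(decide (i = 1) && decide (j = 1))) :=
  polyRemoval_L2

end Vale.Agent.Results.P037.LPattern
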